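import Mathlib
import Crest.Prelude.Def_SmoothDivisors

/-!
# Row 271 (Fujita freeness): definitions and block interfaces

See `Blueprint.lean` for the mathematics.  The `St*` propositions are the interfaces between blocks.
-/

set_option autoImplicit false
set_option linter.unusedSectionVars false

open MeasureTheory Filter Topology Set
open scoped ENNReal ContDiff

noncomputable section

namespace Crest.Agent.R271

/-- `ℂⁿ` (sup norm, product Lebesgue measure) -/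
abbrev E (n : ℕ) : Type := Fin n → ℂ

/-- a Riemann domain over `ℂⁿ` with its Lebesgue measure -/
structure Dom (n : ℕ) (M : Type) [TopologicalSpace M] [MeasurableSpace M] where
  p : M → E n
  loc : IsLocalHomeomorph p
  μ : Measure M
  hμ : ∀ e : OpenPartialHomeomorph M (E n), (∀ y ∈ e.source, e y = p y) →
    (μ.restrict e.source).map p = volume.restrict e.target

namespace Dom

variable {n : ℕ} {M : Type} [TopologicalSpace M] [MeasurableSpace M] (D : Dom n M)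
  {F : Type} [NormedAddCommGroup F] [NormedSpace ℝ F]

/-- the chosen chart at `y` (equal to `p` as a function) -/
def ch (y : M) : OpenPartialHomeomorph M (E n) := (D.loc y).choose

/-- real derivative in the coordinates `p` -/
def d (f : M → F) (y : M) : E n →L[ℝ] F := fderiv ℝ (f ∘ (D.ch y).symm) (D.p y)

/-- smooth -/
def Sm (f : M → F) : Prop := ∀ y, ContDiffAt ℝ ∞ (f ∘ (D.ch y).symm) (D.p y)

/-- holomorphic on a set -/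
def HolOn (f : M → ℂ) (U : Set M) : Prop :=
  ∀ y ∈ U, DifferentiableAt ℂ (f ∘ (D.ch y).symm) (D.p y)

/-- holomorphic -/
def Hol (f : M → ℂ) : Prop := D.HolOn f univ

/-- `∂̄u (ξ) = ∑ ∂̄_j u · conj ξ_j` -/
def db (u : M → ℂ) (y : M) (ξ : E n) : ℂ :=
  (D.d u y ξ + Complex.I * D.d u y (Complex.I • ξ)) / 2

/-- Levi form `∑ φ_{j k̄} ξ_j conj ξ_k` -/
def levi (φ : M → ℝ) (y : M) (ξ : E n) : ℝ :=
  (D.d (fun y' => D.d φ y' ξ) y ξ +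
    D.d (fun y' => D.d φ y' (Complex.I • ξ)) y (Complex.I • ξ)) / 4

/-- smooth plurisubharmonic -/
def Psh (φ : M → ℝ) : Prop := D.Sm φ ∧ ∀ y ξ, 0 ≤ D.levi φ y ξ

/-- smooth strictly plurisubharmonic -/
def SPsh (φ : M → ℝ) : Prop := D.Sm φ ∧ ∀ y ξ, ξ ≠ 0 → 0 < D.levi φ y ξ

/-- continuous `g ≥ 0` whose logarithm is a decreasing limit of smooth psh functions -/
def LP (g : M → ℝ) : Prop := Continuous g ∧ ∃ φ : ℕ → M → ℝ, (∀ ν, D.Psh (φ ν)) ∧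
  (∀ y, Antitone fun ν => φ ν y) ∧ ∀ y, Tendsto (fun ν => Real.exp (φ ν y)) atTop (𝓝 (g y))

/-- `1 / g` is not integrable near `y` -/
def Sing (g : M → ℝ) (y : M) : Prop :=
  ∀ U ∈ 𝓝 y, ∫⁻ x in U, (ENNReal.ofReal (g x))⁻¹ ∂D.μ = ⊤

/-- the polyhedra `{h i < exp (-a i t)}` have volume rate at most `α` at `y` -/
def Rate {ι : Type} (h : ι → M → ℝ) (a : ι → ℝ) (y : M) (α : ℝ) : Prop :=
  ∀ δ : ℝ, 0 < δ → ∀ U ∈ 𝓝 y, ∃ c : ℝ, 0 < c ∧ ∀ t : ℝ, 0 ≤ t →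
    ENNReal.ofReal (c * Real.exp (-(α + δ) * t)) ≤
      D.μ (U ∩ {x | ∀ i, 0 < a i → h i x < Real.exp (-(a i) * t)})

end Dom

/-- a statement for all Riemann domains -/
def AllD (P : ∀ (n : ℕ) (M : Type) [TopologicalSpace M] [MeasurableSpace M], Dom n M → Prop) :
    Prop :=
  ∀ (n : ℕ) (M : Type) [TopologicalSpace M] [T2Space M] [SecondCountableTopology M]
    [MeasurableSpace M] [BorelSpace M] (D : Dom n M), P n M D

/-! ### Block H: Hörmander -/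

section H
variable {n : ℕ} {M : Type} [TopologicalSpace M] [MeasurableSpace M]

/-- Hörmander's estimate for exact forms -/
def StHor (D : Dom n M) : Prop := ∀ ρ : M → ℝ, D.SPsh ρ → (∀ r, IsCompact {y | ρ y ≤ r}) →
  ∀ (Φ : M → ℝ) (u : M → ℂ) (h : M → ℝ), D.Psh Φ → D.Sm u → Measurable h → (∀ y, 0 ≤ h y) →
    (∀ y ξ, ‖D.db u y ξ‖ ^ 2 ≤ h y * D.levi Φ y ξ) →
    ∫⁻ y, ENNReal.ofReal (‖u y‖ ^ 2 * Real.exp (-Φ y)) ∂D.μ ≠ ⊤ →
    ∃ F, D.Hol F ∧ ∫⁻ y, ENNReal.ofReal (‖u y - F y‖ ^ 2 * Real.exp (-Φ y)) ∂D.μ ≤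
      ∫⁻ y, ENNReal.ofReal (h y * Real.exp (-Φ y)) ∂D.μ

/-- `L²` Cauchy estimates -/
def StMV (D : Dom n M) : Prop := ∀ (y₀ : M) (U : Set M), IsOpen U → y₀ ∈ U →
  ∃ V ∈ 𝓝 y₀, ∃ C : ℝ, ∀ (F : M → ℂ) (B : ℝ), D.HolOn F U → 0 ≤ B →
    ∫⁻ y in U, ENNReal.ofReal (‖F y‖ ^ 2) ∂D.μ ≤ ENNReal.ofReal (B ^ 2) →
    ∀ y ∈ V, ‖F y‖ ≤ C * B ∧ ∀ y' ∈ V, ‖F y - F y'‖ ≤ C * B * ‖D.p y - D.p y'‖

/-- Montel -/
def StMon (D : Dom n M) : Prop := ∀ F : ℕ → M → ℂ, (∀ ν, D.Hol (F ν)) →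
  (∀ y, ∃ U ∈ 𝓝 y, ∃ B : ℝ≥0∞, B ≠ ⊤ ∧
    ∀ ν, ∫⁻ x in U, ENNReal.ofReal (‖F ν x‖ ^ 2) ∂D.μ ≤ B) →
  ∃ (s : ℕ → ℕ) (G : M → ℂ), StrictMono s ∧ D.Hol G ∧
    TendstoLocallyUniformly (fun ν => F (s ν)) G atTop

end H

structure HB : Prop where
  hor : AllD fun _ _ _ _ D => StHor D
  mv : AllD fun _ _ _ _ D => StMV D
  mon : AllD fun _ _ _ _ D => StMon D

/-! ### The affine variety with its filtration -/

/-- Hilbert function of the filtration modulo an ideal -/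
def hf {A : Type} [CommRing A] [Algebra ℂ A] (F : ℕ → Submodule ℂ A) (𝔭 : Ideal A) (j : ℕ) : ℕ :=
  Module.finrank ℂ ((F j).map (Ideal.Quotient.mkₐ ℂ 𝔭).toLinearMap)

/-- the complex points of an affine variety étale over `ℂⁿ` -/
structure Aff (n : ℕ) (M : Type) [TopologicalSpace M] [MeasurableSpace M] (A : Type) [CommRing A]
    [Algebra ℂ A] extends Dom n M where
  ev : M → (A →ₐ[ℂ] ℂ)
  ev_bij : Function.Bijective ev
  hol : ∀ a, toDom.Hol fun y => ev y a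
  z : Fin n → A
  p_eq : ∀ y i, p y i = ev y (z i)
  etale : (MvPolynomial.aeval z : MvPolynomial (Fin n) ℂ →ₐ[ℂ] A).toRingHom.Etale
  N : ℕ
  w : Fin N → A
  gen : Algebra.adjoin ℂ (range w) = ⊤
  z_mem : ∀ i, z i ∈ range w
  emb : IsClosedEmbedding fun y i => ev y (w i)
  fib : ∃ b : ℕ, ∀ v, (p ⁻¹' {v}).encard ≤ b
  alg : ∀ (F : M → ℂ) (K : ℝ), toDom.Hol F →
    ∫⁻ y, ENNReal.ofReal (‖F y‖ ^ 2 / (1 + ∑ i, ‖ev y (w i)‖ ^ 2) ^ K) ∂μ ≠ ⊤ →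
    ∃ a, ∀ y, F y = ev y a

namespace Aff
variable {n : ℕ} {M : Type} [TopologicalSpace M] [MeasurableSpace M] {A : Type} [CommRing A]
  [Algebra ℂ A] (S : Aff n M A)

/-- `|a|²` -/
def sq (a : A) (y : M) : ℝ := ‖S.ev y a‖ ^ 2

/-- polynomial growth -/
def Mod (g : M → ℝ) : Prop := ∃ C K : ℝ, ∀ y, g y ≤ C * (1 + ∑ i, S.sq (S.w i) y) ^ K

/-- the points of `V(I)` -/
def V (I : Ideal A) : Set M := {y | ∀ a ∈ I, S.ev y a = 0}

end Aff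

/-- the algebraic properties of the filtration by (a multiple `κ` of) the ample divisor;
`dm 𝔭` is the dimension of `V(𝔭)` -/
structure Filt {n : ℕ} {A : Type} [CommRing A] [Algebra ℂ A] (z : Fin n → A)
    (F : ℕ → Submodule ℂ A) (κ : ℝ) (dm : Ideal A → ℕ) : Prop where
  mono : Monotone F
  one_mem : (1 : A) ∈ F 0
  mul_mem : ∀ i j, ∀ a ∈ F i, ∀ b ∈ F j, a * b ∈ F (i + j)
  exh : ∀ a, ∃ j, a ∈ F j
  fd : ∀ j, FiniteDimensional ℂ (F j)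
  der : ∃ e : ℕ, ∀ i, ∃ δ : Derivation ℂ A A, (∀ i', δ (z i') = if i' = i then 1 else 0) ∧
    ∀ j, ∀ a ∈ F j, δ a ∈ F (j + e)
  dm_bot : dm ⊥ = n
  dm_lt : ∀ 𝔭 𝔮 : Ideal A, 𝔭.IsPrime → 𝔮.IsPrime → 𝔭 < 𝔮 → dm 𝔮 < dm 𝔭
  dm_zero : ∀ 𝔭 : Ideal A, 𝔭.IsPrime → dm 𝔭 = 0 → 𝔭.IsMaximal
  coord : ∀ 𝔭 : Ideal A, 𝔭.IsPrime → ∃ ι : Fin (dm 𝔭) → Fin n, Function.Injective ι ∧
    IsTranscendenceBasis ℂ fun i => Ideal.Quotient.mk 𝔭 (z (ι i))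
  hf1 : ∀ 𝔭 : Ideal A, 𝔭.IsPrime → ∃ e : ℝ, 0 < e ∧
    Tendsto (fun j : ℕ => (hf F 𝔭 j : ℝ) / (j : ℝ) ^ dm 𝔭) atTop (𝓝 e)
  hf2 : ∀ ε : ℝ, 0 < ε → ∃ j₀ : ℕ, ∀ j ≥ j₀, ∀ 𝔭 : Ideal A, 𝔭.IsPrime →
    (1 - ε) * (κ * j) ^ dm 𝔭 / (dm 𝔭).factorial ≤ hf F 𝔭 j

/-- an affine variety with its filtration and the growth weight `G` -/
structure Setup (n : ℕ) (M : Type) [TopologicalSpace M] [MeasurableSpace M] (A : Type) [CommRing A]
    [Algebra ℂ A] extends Aff n M A where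
  F : ℕ → Submodule ℂ A
  κ : ℝ
  κ_pos : 0 < κ
  dm : Ideal A → ℕ
  filt : Filt z F κ dm
  G : M → ℝ
  G_pos : ∀ y, 0 < G y
  bound : ∀ j, ∀ a ∈ F j, ∃ C : ℝ, ∀ y, toAff.sq a y ≤ C * G y ^ j

/-- a statement for all `Aff` -/
def AllA (P : ∀ (n : ℕ) (M : Type) [TopologicalSpace M] [MeasurableSpace M] (A : Type) [CommRing A]
    [Algebra ℂ A], Aff n M A → Prop) : Prop :=
  ∀ (n : ℕ) (M : Type) [TopologicalSpace M] [T2Space M] [SecondCountableTopology M]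
    [MeasurableSpace M] [BorelSpace M] (A : Type) [CommRing A] [IsDomain A] [Algebra ℂ A]
    (S : Aff n M A), 1 ≤ n → P n M A S

/-! ### Block G: Guan–Zhou lemma and consequences -/

section G
variable {n : ℕ} {M : Type} [TopologicalSpace M] [MeasurableSpace M] {A : Type} [CommRing A]
  [Algebra ℂ A]

/-- closure properties of `LP` and `SPsh` -/
structure StLP (S : Aff n M A) : Prop where
  sq : ∀ a, S.LP (S.sq a)
  const : ∀ c : ℝ, 0 ≤ c → S.LP fun _ => c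
  add : ∀ g h, S.LP g → S.LP h → S.LP fun y => g y + h y
  mul : ∀ g h, S.LP g → S.LP h → S.LP fun y => g y * h y
  rpow : ∀ g (c : ℝ), S.LP g → 0 ≤ c → S.LP fun y => g y ^ c
  nonneg : ∀ g, S.LP g → ∀ y, 0 ≤ g y
  log_unit : ∀ a : A, IsUnit a → S.Psh fun y => Real.log (S.sq a y)
  log_z : S.SPsh fun y => Real.log (1 + ∑ i, S.sq (S.z i) y)
  sp_add : ∀ φ ψ, S.SPsh φ → S.Psh ψ → S.SPsh fun y => φ y + ψ y
  sp_mul : ∀ φ (c : ℝ), S.SPsh φ → 0 < c → S.SPsh fun y => c * φ y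
  p_mul : ∀ φ (c : ℝ), S.Psh φ → 0 ≤ c → S.Psh fun y => c * φ y
  mod_sq : ∀ a, S.Mod (S.sq a)
  mod_const : ∀ c : ℝ, S.Mod fun _ => c
  mod_add : ∀ g h, S.Mod g → S.Mod h → S.Mod fun y => g y + h y
  mod_mul : ∀ g h, (∀ y, 0 ≤ g y) → (∀ y, 0 ≤ h y) → S.Mod g → S.Mod h → S.Mod fun y => g y * h y
  mod_rpow : ∀ g (c : ℝ), (∀ y, 0 ≤ g y) → 0 ≤ c → S.Mod g → S.Mod fun y => g y ^ c

/-- uniform lower bound for the volume of sublevel sets -/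
def StVol (S : Aff n M A) : Prop := ∀ (y₀ : M), ∀ U ∈ 𝓝 y₀, ∀ B δ : ℝ, 0 < δ →
  ∃ V ∈ 𝓝 y₀, ∃ c : ℝ, 0 < c ∧ ∀ g, S.LP g → (∀ y ∈ U, g y ≤ B) → ∀ y ∈ V, S.Sing g y →
    ∀ t : ℝ, 0 ≤ t →
      ENNReal.ofReal (c * Real.exp (-(1 + δ) * t)) ≤ S.μ (U ∩ {x | g x < Real.exp (-t)})

/-- `Rate` in terms of non-integrability -/
def StRate (S : Aff n M A) : Prop := ∀ (ι : Type) [Fintype ι] (h : ι → M → ℝ) (a : ι → ℝ) (y : M)
  (α : ℝ), (∀ i, S.LP (h i)) → 0 ≤ α → (S.Rate h a y α ↔ ∀ δ : ℝ, 0 < δ →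
    S.Sing (fun x => (∑ i with 0 < a i, h i x ^ (a i)⁻¹) ^ (α + δ)) y)

/-- sum of valuations -/
def StSum (S : Aff n M A) : Prop := ∀ (ι : Type) [Fintype ι] (h : ι → M → ℝ) (a b : ι → ℝ) (y : M)
  (α β : ℝ), (∀ i, S.LP (h i)) → (∀ i, S.Mod (h i)) → (∀ i, 0 ≤ a i) → (∀ i, 0 ≤ b i) → 0 ≤ α →
    0 ≤ β → S.Rate h a y α → S.Rate h b y β → S.Rate h (a + b) y (α + β)

/-- semicontinuity -/
def StLim (S : Aff n M A) : Prop := ∀ (ι : Type) [Fintype ι] (h : ℕ → ι → M → ℝ) (a : ℕ → ι → ℝ)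
  (y : ℕ → M) (α : ℕ → ℝ) (h₀ : ι → M → ℝ) (a₀ : ι → ℝ) (y₀ : M) (α₀ : ℝ),
    (∀ ν i, S.LP (h ν i)) → (∀ ν, 0 ≤ α ν) → (∃ U ∈ 𝓝 y₀, ∃ B : ℝ, ∀ ν i, ∀ x ∈ U, h ν i x ≤ B) →
    (∀ i x, Tendsto (fun ν => h ν i x) atTop (𝓝 (h₀ i x))) →
    (∀ i, Tendsto (fun ν => a ν i) atTop (𝓝 (a₀ i))) → Tendsto y atTop (𝓝 y₀) →
    Tendsto α atTop (𝓝 α₀) → (∀ ν, S.Rate (h ν) (a ν) (y ν) (α ν)) → S.Rate h₀ a₀ y₀ α₀

/-- the multiplier ideal cuts out the non-integrability locus -/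
def StZar (S : Aff n M A) : Prop := ∀ g, S.LP g → S.Mod g → ∀ y, ¬ S.Sing g y →
  ∃ a : A, S.ev y a ≠ 0 ∧ ∀ y', ∃ U ∈ 𝓝 y',
    ∫⁻ x in U, ENNReal.ofReal (S.sq a x) * (ENNReal.ofReal (g x))⁻¹ ∂S.μ ≠ ⊤

/-- Nadel -/
def StNad (S : Aff n M A) : Prop := ∀ (g φ Γ : M → ℝ) (x : M), S.LP g → S.SPsh φ → Continuous Γ →
  (∀ y, 0 < Γ y) → (∀ y, g y * Real.exp (φ y) ≤ Γ y) → S.Sing g x →
  (∀ᶠ y in 𝓝[≠] x, ¬ S.Sing g y) →
  ∃ F, S.Hol F ∧ F x ≠ 0 ∧ ∫⁻ y, ENNReal.ofReal (‖F y‖ ^ 2 / Γ y) ∂S.μ ≠ ⊤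

/-- the volume of coordinate polydiscs -/
def StCo (S : Aff n M A) : Prop := ∀ (d : ℕ) (ι : Fin d → Fin n) (y : M) (θ : ℝ), 0 ≤ θ →
  S.Rate (fun i => S.sq (S.z (ι i) - algebraMap ℂ A (S.p y (ι i)))) (fun _ => θ) y (θ * d)

end G

structure GB : Prop where
  lp : AllA fun _ _ _ _ _ _ _ S => StLP S
  vol : AllA fun _ _ _ _ _ _ _ S => StVol S
  rate : AllA fun _ _ _ _ _ _ _ S => StRate S
  sum : AllA fun _ _ _ _ _ _ _ S => StSum S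
  lim : AllA fun _ _ _ _ _ _ _ S => StLim S
  zar : AllA fun _ _ _ _ _ _ _ S => StZar S
  nad : AllA fun _ _ _ _ _ _ _ S => StNad S
  co : AllA fun _ _ _ _ _ _ _ S => StCo S

/-! ### Block Al: commutative algebra and combinatorics -/

/-- Taylor expansion at a point of an étale `ℂ[X]`-algebra -/
def StTay : Prop := ∀ (d : ℕ) (D : Type) [CommRing D] [IsDomain D] [Algebra ℂ D] (ζ : Fin d → D),
  (MvPolynomial.aeval ζ : MvPolynomial (Fin d) ℂ →ₐ[ℂ] D).toRingHom.Etale → ∀ y : D →ₐ[ℂ] ℂ,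
  ∃ T : D →ₐ[ℂ] MvPowerSeries (Fin d) ℂ, Function.Injective T ∧
    (∀ i, T (ζ i) = MvPowerSeries.C (y (ζ i)) + MvPowerSeries.X i) ∧
    (∀ g, MvPowerSeries.constantCoeff (T g) = y g) ∧
    ∀ (g : D) (a : ℕ), (a : ℕ∞) ≤ (T g).order → ∃ h, y h ≠ 0 ∧
      h * g ∈ Ideal.span (range fun i => ζ i - algebraMap ℂ D (y (ζ i))) ^ a

/-- generic étaleness -/
def StGen : Prop := ∀ (d : ℕ) (D : Type) [CommRing D] [IsDomain D] [Algebra ℂ D]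
  [Algebra.FiniteType ℂ D] (ζ : Fin d → D), IsTranscendenceBasis ℂ ζ → ∃ h : D, h ≠ 0 ∧
    (MvPolynomial.aeval fun i => algebraMap D (Localization.Away h) (ζ i) :
      MvPolynomial (Fin d) ℂ →ₐ[ℂ] Localization.Away h).toRingHom.Etale

/-- Zariski open sets are dense in the Euclidean topology -/
def StDens : Prop := ∀ (D : Type) [CommRing D] [IsDomain D] [Algebra ℂ D] [Algebra.FiniteType ℂ D]
  (x : D →ₐ[ℂ] ℂ) (h : D), h ≠ 0 → ∃ y : ℕ → (D →ₐ[ℂ] ℂ), (∀ ν, y ν h ≠ 0) ∧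
    ∀ a, Tendsto (fun ν => y ν a) atTop (𝓝 (x a))

open Pointwise in
/-- discrete Brunn–Minkowski inequality -/
def StBM : Prop := ∀ (d : ℕ), 0 < d → ∀ (P Q C : Finset (Fin d →₀ ℕ)), P.Nonempty → Q.Nonempty →
  (∀ u ∈ P, ∀ v ∈ Q, ∀ e : Fin d →₀ ℕ, (∀ i, e i ≤ 1) → u + v + e ∈ C) →
  (P.card : ℝ) ^ (d : ℝ)⁻¹ + (Q.card : ℝ) ^ (d : ℝ)⁻¹ ≤ (C.card : ℝ) ^ (d : ℝ)⁻¹

/-- lattice points of small degree are few -/
def StDeg : Prop := ∀ (d : ℕ), 0 < d → ∀ (P : Finset (Fin d →₀ ℕ)) (R : ℕ), P.card ≤ R →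
  (d : ℝ) / (d + 1) * ((d.factorial : ℝ) * P.card) ^ (d : ℝ)⁻¹ * P.card - d * P.card ≤
    ∑ u ∈ P, (min u.degree R : ℝ)

structure AlB : Prop where
  tay : StTay
  gen : StGen
  dens : StDens
  bm : StBM
  deg : StDeg

/-! ### Block St: the stages -/

def StSt : Prop := ∀ (n : ℕ) (M : Type) [TopologicalSpace M] [T2Space M]
  [SecondCountableTopology M] [MeasurableSpace M] [BorelSpace M] (A : Type) [CommRing A]
  [IsDomain A] [Algebra ℂ A] (S : Setup n M A) (x : M), 1 ≤ n →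
  ∃ (g : M → ℝ) (t C : ℝ), S.LP g ∧ 0 ≤ t ∧ t * S.κ < n + 1 ∧ (∀ y, g y ≤ C * S.G y ^ t) ∧
    S.Sing g x ∧ ∀ᶠ y in 𝓝[≠] x, ¬ S.Sing g y

/-! ### The section ring -/

/-- `R` is a finite graded module over the polynomials in the degree `k` elements `t` -/
def FinOver {K : Type} [Field K] [Algebra ℂ K] (R : ℕ → Submodule ℂ K) (k : ℕ) {N : ℕ}
    (t : Fin N → K) : Prop :=
  ∃ (q : ℕ) (r : Fin q → K) (dg : Fin q → ℕ), (∀ i, r i ∈ R (dg i)) ∧ ∀ l,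
    R l ≤ Submodule.span ℂ {s | ∃ (i : Fin q) (e : Fin N → ℕ),
      k * ∑ j, e j + dg i = l ∧ s = (∏ j, t j ^ e j) * r i}

/-- the section ring of an ample divisor, a finite projection `t` which is étale on the affine
open set `Spec A = {τ ≠ 0}`, and a point of it -/
structure GR (n : ℕ) (K : Type) [Field K] [Algebra ℂ K] where
  R : ℕ → Submodule ℂ K
  one_mem : (1 : K) ∈ R 0
  mul_mem : ∀ i j, ∀ a ∈ R i, ∀ b ∈ R j, a * b ∈ R (i + j)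
  k : ℕ
  k' : ℕ
  k_pos : 0 < k
  k'_pos : 0 < k'
  a : ℕ
  b : ℕ
  bez : a * k = b * k' + 1
  t : Fin (n + 1) → K
  t_mem : ∀ i, t i ∈ R k
  fin : FinOver R k t
  N' : ℕ
  t' : Fin (N' + 1) → K
  t'_mem : ∀ i, t' i ∈ R k'
  fin' : FinOver R k' t'
  t0_ne : t 0 ≠ 0
  t'0_ne : t' 0 ≠ 0
  indep : AlgebraicIndependent ℂ fun i : Fin n => t i.succ / t 0
  U : K
  U_mem : ∃ j, U * t 0 ^ j ∈ R (j * k)
  c : ℕ
  c_pos : 0 < c
  τ : K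
  τ_mem : τ ∈ R (c * k * k')
  τ_ne : τ ≠ 0
  A : Subalgebra ℂ K
  mem_A : ∀ f, f ∈ A ↔ ∃ j, f * τ ^ j ∈ R (j * (c * k * k'))
  frac : ∀ f : K, ∃ u ∈ A, ∃ v ∈ A, f = u / v
  g : K
  g_mem : g ∈ Algebra.adjoin ℂ (insert U (range fun i : Fin n => t i.succ / t 0))
  g_ne : g ≠ 0
  A_eq : A = Algebra.adjoin ℂ (insert g⁻¹ (insert U (range fun i : Fin n => t i.succ / t 0)))
  sep : ∃ v ∈ A, v * Polynomial.aeval U (Polynomial.derivative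
    (minpoly (Algebra.adjoin ℂ (range fun i : Fin n => t i.succ / t 0)) U)) = 1
  unit : τ / t 0 ^ (c * k') ∈ A
  unit' : τ / t' 0 ^ (c * k) ∈ A
  x : A →ₐ[ℂ] ℂ

namespace GR
variable {n : ℕ} {K : Type} [Field K] [Algebra ℂ K] (g : GR n K)

/-- affine coordinates -/
def z (i : Fin n) : K := g.t i.succ / g.t 0

/-- generator of `L` on `Spec A` -/
def lam : K := g.t 0 ^ g.a / g.t' 0 ^ g.b

/-- `f · lam ^ m · dz` is a global section of `K + m L` (in the sense of duality for the finite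
projection), non-vanishing at `x` -/
def TrProp (m : ℕ) : Prop := ∃ f : g.A, g.x f ≠ 0 ∧ ∀ (l c : ℕ), l + m = c * g.k → ∀ s ∈ g.R l,
  ∃ P : MvPolynomial (Fin n) ℂ, (P = 0 ∨ P.totalDegree + n + 1 ≤ c) ∧
    (Algebra.trace (IntermediateField.adjoin ℂ (range g.z)) K
      (s * f * g.lam ^ m / g.t 0 ^ c) : K) = MvPolynomial.aeval g.z P

/-- the coordinates as elements of `A` -/
def zA (i : Fin n) : g.A :=
  ⟨g.z i, by rw [g.A_eq]; exact Algebra.subset_adjoin (Or.inr (Or.inr ⟨i, rfl⟩))⟩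

/-- the filtration `F j = R (j κ) / τ ^ j` of `A` -/
def F (j : ℕ) : Submodule ℂ g.A :=
  (g.R (j * (g.c * g.k * g.k'))).comap (LinearMap.mulRight ℂ (g.τ ^ j) ∘ₗ g.A.val.toLinearMap)

end GR

/-- block T1: the analytic model of `Spec A`, and traces of `L²` functions -/
def StT1 : Prop := ∀ (n : ℕ) (K : Type) [Field K] [Algebra ℂ K] (g : GR n K), 1 ≤ n →
  ∃ (M : Type) (_ : TopologicalSpace M) (_ : T2Space M) (_ : SecondCountableTopology M)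
    (_ : MeasurableSpace M) (_ : BorelSpace M) (S : Aff n M g.A), S.z = g.zA ∧
    ∀ (φ : g.A) (c : ℕ),
      ∫⁻ y, ENNReal.ofReal (S.sq φ y / (1 + ∑ i, S.sq (S.z i) y) ^ c) ∂S.μ ≠ ⊤ →
      ∃ P : MvPolynomial (Fin n) ℂ, (P = 0 ∨ P.totalDegree + n + 1 ≤ c) ∧
        (Algebra.trace (IntermediateField.adjoin ℂ (range g.z)) K φ : K) = MvPolynomial.aeval g.z P

/-- block T2: Hilbert functions, dimension, derivations -/
def StT2 : Prop := ∀ (n : ℕ) (K : Type) [Field K] [Algebra ℂ K] (g : GR n K), 1 ≤ n →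
  ∃ dm, Filt g.zA g.F ((g.c * g.k * g.k' : ℕ) : ℝ) dm

/-- block T: the theorem in the language of the section ring -/
def StT : Prop := ∀ (n : ℕ) (K : Type) [Field K] [Algebra ℂ K] (g : GR n K) (m : ℕ), 1 ≤ n →
  n + 1 ≤ m → g.TrProp m

/-! ### The valuation model of the scheme -/

/-- block U: local rings at closed points of étale `ℂ[X]`-algebras are factorial -/
def StUFD : Prop := ∀ (d : ℕ) (D : Type) [CommRing D] [IsDomain D] [Algebra ℂ D] (ζ : Fin d → D),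
  (MvPolynomial.aeval ζ : MvPolynomial (Fin d) ℂ →ₐ[ℂ] D).toRingHom.Etale →
  ∀ (𝔪 : Ideal D) [𝔪.IsMaximal], UniqueFactorizationMonoid (Localization.AtPrime 𝔪)

open Crest.AlgGeometry.Divisors in
/-- a smooth projective variety with function field `K`, prime divisors `ι`, ample divisor `L`,
affine charts `Spec (C i) = {u i ≠ 0}`, a closed point `x` of the chart `0`, a canonical divisor -/
structure VM (n : ℕ) (K : Type) [Field K] [Algebra ℂ K] where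
  ι : Type
  ord : ι → K → ℤ
  ord_mul : ∀ z f g, f ≠ 0 → g ≠ 0 → ord z (f * g) = ord z f + ord z g
  O : ι → Subalgebra ℂ K
  mem_O : ∀ z f, f ∈ O z ↔ f = 0 ∨ 0 ≤ ord z f
  unif : ∀ z, ∃ π, π ≠ 0 ∧ ord z π = 1
  fin_supp : ∀ f, f ≠ 0 → {z | ord z f < 0}.Finite
  trdeg : Algebra.trdeg ℂ K = n
  L : ι → ℤ
  k₀ : ℕ
  k₀_pos : 0 < k₀
  N : ℕ
  u : Fin (N + 1) → K
  u_ne : ∀ i, u i ≠ 0
  u_sec : ∀ i z, 0 ≤ ord z (u i) + k₀ * L z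
  cover : ∀ z, ∃ i, ord z (u i) + k₀ * L z = 0
  C : Fin (N + 1) → Subalgebra ℂ K
  fg : ∀ i, (C i).FG
  mem_C : ∀ i f, f ∈ C i ↔ ∀ z, ord z (u i) + k₀ * L z = 0 → f ∈ O z
  frac : ∀ i f, ∃ a ∈ C i, ∃ b ∈ C i, f = a / b
  loc : ∀ i z, ord z (u i) + k₀ * L z = 0 → ∀ f ∈ O z,
    ∃ a ∈ C i, ∃ b ∈ C i, b ≠ 0 ∧ ord z b = 0 ∧ f = a / b
  val : ∀ V : ValuationSubring K, (∀ c : ℂ, algebraMap ℂ K c ∈ V) → ∃ i, ∀ f ∈ C i, f ∈ V
  cartier : ∀ i, ∃ (q : ℕ) (h c : Fin q → K), (∀ a, c a ∈ C i) ∧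
    (∀ a z, ord z (u i) + k₀ * L z = 0 → h a = 0 ∨ 0 ≤ ord z (h a) + L z) ∧
    ∑ a, c a * (h a ^ k₀ / u i) = 1
  x : C 0 →ₐ[ℂ] ℂ
  reg : ∃ y : Fin n → C 0, (∀ i, x (y i) = 0) ∧
    ∀ a, x a = 0 → ∃ b, x b ≠ 0 ∧ b * a ∈ Ideal.span (range y)
  Kc : ι → ℤ
  form : RatTopForm ℂ K n
  form_ne : ∀ b, form.coef b ≠ 0
  frame : ∀ z, ∃ b : Module.Basis (Fin n) K (Ω[K⁄ℂ]),
    Submodule.span (O z) (range b) = Submodule.span (O z) (KaehlerDifferential.D ℂ K '' O z) ∧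
      Kc z = ord z (form.coef b)

namespace VM
variable {n : ℕ} {K : Type} [Field K] [Algebra ℂ K] (v : VM n K)

/-- the prime divisor `z` passes through `x` -/
def Thr (z : v.ι) : Prop :=
  v.ord z (v.u 0) + v.k₀ * v.L z = 0 ∧ ∀ a : v.C 0, v.x a ≠ 0 → v.ord z a = 0

/-- `K + m L` has a section that does not vanish at `x` -/
def Concl (m : ℕ) : Prop := ∃ f : K, f ≠ 0 ∧ (∀ z, 0 ≤ v.ord z f + (v.Kc z + m * v.L z)) ∧
  ∀ z, v.Thr z → v.ord z f + (v.Kc z + m * v.L z) = 0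

/-- `g` is the section ring of `L`, with the point `x` -/
def Link (g : GR n K) : Prop :=
  (∀ (l : ℕ) f, f ∈ g.R l ↔ f = 0 ∨ ∀ z, 0 ≤ v.ord z f + l * v.L z) ∧
  ∀ z, v.Thr z → (∀ a ∈ g.A, a ∈ v.O z) ∧ (∀ a : g.A, g.x a ≠ 0 → v.ord z a = 0) ∧
    v.ord z (g.t 0) + g.k * v.L z = 0

end VM

/-- the theorem in the valuation model -/
def StV : Prop := ∀ (n : ℕ) (K : Type) [Field K] [Algebra ℂ K] (v : VM n K) (m : ℕ), 1 ≤ n →
  n + 1 ≤ m → v.Concl m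

/-- block S2: finite generation of the section ring, Noether normalisation étale at `x` -/
def StS2 : Prop := ∀ (n : ℕ) (K : Type) [Field K] [Algebra ℂ K] (v : VM n K), 1 ≤ n →
  ∃ g : GR n K, v.Link g

/-- block S3: duality for the finite projection -/
def StS3 : Prop := ∀ (n : ℕ) (K : Type) [Field K] [Algebra ℂ K] (v : VM n K) (g : GR n K) (m : ℕ),
  1 ≤ n → v.Link g → g.TrProp m → v.Concl m

open AlgebraicGeometry Crest.AlgGeometry.Divisors in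
/-- the statement of the row -/
def StMain : Prop :=
  ∀ (X : Scheme.{0}) [Algebra ℂ Γ(X, ⊤)] [IsIntegral X] [IsLocallyNoetherian X]
    (n : ℕ) (_ : 1 ≤ n) (_ : IsSmoothProperVariety ℂ X n)
    (L : WeilDiv X) (_ : IsAmple L) (K : WeilDiv X) (_ : IsCanonicalDivisor ℂ X n K)
    (m : ℕ) (_ : n + 1 ≤ m), IsBasepointFree (K + m • L)

end Crest.Agent.R271
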